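import Vale.Agent.P230.Final
import Vale.Agent.P230.Upper
import Vale.Agent.P230.L.Main

namespace Vale.Agent.Results.P230.A_full

open Vale.Agent.P230

theorem result : ∃ c C : ℝ, 0 < c ∧ 0 < C ∧ ∃ n₀ : ℕ, ∀ n ≥ n₀,
    ENNReal.ofReal (c * n * Real.log n) ≤ ThetaT n ∧
    ThetaT n ≤ ThetaL n ∧
    ThetaL n ≤ ENNReal.ofReal (C * n * Real.log n) := by
  obtain ⟨c, hc, n₀, h⟩ := lower_bound
  obtain ⟨C, n₁, hC, h'⟩ := L.thetaL_upper
  refine ⟨c, C, hc, hC, max n₀ n₁, fun n hn => ?_⟩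
  obtain ⟨K, hK, h1⟩ := h n (le_of_max_le_left hn)
  exact ⟨h1.trans (le_iSup₂_of_le K hK le_rfl),
    iSup₂_le fun K hK => (thetaT_le_thetaL K).trans (le_iSup₂_of_le K hK le_rfl),
    iSup₂_le fun K hK => h' n (le_of_max_le_right hn) K hK⟩

end Vale.Agent.Results.P230.A_full
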