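import Vale.Agent.P230.Final
import Vale.Agent.P230.Upper

namespace Vale.Agent.Results.P230.A_order

open Vale.Agent.P230

theorem result : ∃ c C : ℝ, 0 < c ∧ 0 < C ∧ ∃ n₀ : ℕ, ∀ n ≥ n₀,
    ENNReal.ofReal (c * n * Real.log n) ≤ ThetaT n ∧
    ThetaT n ≤ ENNReal.ofReal (C * n * Real.log n) ∧
    ENNReal.ofReal (c * n * Real.log n) ≤ ThetaL n := by
  obtain ⟨c, hc, n₀, h⟩ := lower_bound
  refine ⟨c, 19, hc, by norm_num, max n₀ 2, fun n hn => ?_⟩
  obtain ⟨K, hK, h1⟩ := h n (le_of_max_le_left hn)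
  refine ⟨h1.trans (le_iSup₂_of_le K hK le_rfl),
    iSup₂_le fun K hK => upper_bound (le_of_max_le_right hn) hK,
    h1.trans ((thetaT_le_thetaL K).trans (le_iSup₂_of_le K hK le_rfl))⟩

end Vale.Agent.Results.P230.A_order
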