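import Vale.Agent.P230.Final

namespace Vale.Agent.Results.P230.B_lower

open Vale.Agent.P230

theorem result : ∃ c : ℝ, 0 < c ∧ ∃ n₀ : ℕ, ∀ n ≥ n₀,
    ∃ K : Set (EuclideanSpace ℝ (Fin n)),
      IsConvexBody K ∧ ENNReal.ofReal (c * n * Real.log n) ≤ thetaT K :=
  lower_bound

end Vale.Agent.Results.P230.B_lower
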